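import Vale.Agent.P088.R2.H238.Psh
import Vale.Agent.P088.R2.H558.Spec
import Vale.Agent.P088.H925.Scale

/-!
# P088, row LOG: the map `4 (id + w - 1/2)`, transport of the orthogonality identity
-/

open MeasureTheory Set
open scoped ContDiff Matrix

noncomputable section

namespace Vale.Agent.P088.R2.H238

open Vale.Agent.P088.LR Vale.Agent.P088.LR.CF Vale.Agent.P088.H833 Vale.Agent.P088.LR.H925

variable {n : ℕ}

/-- Change of variables on an open set. -/
theorem bl_push_on {w K : V n → V n} (D : Dif univ w K) {Ω : Set (V n)} (hΩ : IsOpen Ω)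
    (s : MF n) {u v : V n → ℂ} (hu : Differentiable ℝ u) (hv : Differentiable ℝ v) :
    bl (K ⁻¹' Ω) (psh s w K) u v = bl Ω s (fun x => u (x + w x)) (fun x => v (x + w x)) := by
  have hK : Differentiable ℝ K := D.sK.differentiable (by simp)
  have him : (fun x => x + w x) '' Ω = K ⁻¹' Ω := by
    ext y
    constructor
    · rintro ⟨x, hx, rfl⟩
      show K (x + w x) ∈ Ω
      rw [D.l]; exact hx
    · intro hy
      exact ⟨K y, hy, D.r y⟩
  unfold bl
  have h1 := integral_image_eq_integral_abs_det_fderiv_smul (volume : Measure (V n))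
    hΩ.measurableSet (f := fun x => x + w x)
    (f' := fun x => ContinuousLinearMap.id ℝ (V n) + fderiv ℝ w x)
    (fun x _ => (H158.hasFDerivAt_H D.sw x).hasFDerivWithinAt) ((H158.H_inj D).injOn)
    (fun y => ∑ i, ∑ j, (psh s w K y i j : ℂ) * pd i u y * pd j v y)
  rw [him] at h1
  rw [h1]
  refine setIntegral_congr_fun hΩ.measurableSet fun x _ => ?_
  show |(ContinuousLinearMap.id ℝ (V n) + fderiv ℝ w x).det| •
    (∑ i, ∑ j, (psh s w K (x + w x) i j : ℂ) * pd i u (x + w x) * pd j v (x + w x)) =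
    ∑ a, ∑ b, (s x a b : ℂ) * pd a (fun x => u (x + w x)) x * pd b (fun x => v (x + w x)) x
  rw [H158.det_H, abs_of_pos (D.dp x)]
  have e1 : ∀ i j, psh s w K (x + w x) i j = (jm w x).det⁻¹ * (jm w x * s x * (jm w x)ᵀ) i j := by
    intro i j
    unfold psh
    rw [D.l, Matrix.smul_apply, smul_eq_mul]
  have hd : ((jm w x).det : ℂ) ≠ 0 := by
    exact_mod_cast (D.dp x).ne'
  have e2 : (jm w x).det • ∑ i, ∑ j, (psh s w K (x + w x) i j : ℂ) * pd i u (x + w x) *
      pd j v (x + w x) = ∑ i, ∑ j, (((jm w x * s x * (jm w x)ᵀ) i j : ℝ) : ℂ) *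
      pd i u (x + w x) * pd j v (x + w x) := by
    rw [Finset.smul_sum]
    refine Finset.sum_congr rfl fun i _ => ?_
    rw [Finset.smul_sum]
    refine Finset.sum_congr rfl fun j _ => ?_
    rw [e1, Complex.real_smul]
    push_cast
    field_simp
  rw [e2, H158.alg_id]
  refine Finset.sum_congr rfl fun a _ => Finset.sum_congr rfl fun b _ => ?_
  rw [H158.pd_comp D.sw (hu _) a, H158.pd_comp D.sw (hv _) b]

theorem pd_const_mul (a : ℂ) {F : V n → ℂ} (hF : Differentiable ℝ F) (i : Fin n) (x : V n) :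
    pd i (fun y => a * F y) x = a * pd i F x := by
  unfold pd
  rw [fderiv_const_mul (hF x)]
  rfl

theorem dv_smul {s t : MF n} {c : ℝ} (hs : SmM s) (h : ∀ y, t y = c • s y) {U : V n → ℂ}
    (hU : ContDiff ℝ ∞ U) (x : V n) : dv t U x = (c : ℂ) * dv s U x := by
  have hfl : ∀ i, Differentiable ℝ (fun y => ∑ j, (s y i j : ℂ) * pd j U y) := fun i =>
    (contDiff_flx hs hU i).differentiable (by simp)
  unfold dv
  rw [Finset.mul_sum]
  refine Finset.sum_congr rfl fun i _ => ?_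
  rw [← pd_const_mul _ (hfl i)]
  congr 1
  funext y
  rw [Finset.mul_sum]
  refine Finset.sum_congr rfl fun j _ => ?_
  rw [h y, Matrix.smul_apply, smul_eq_mul]
  push_cast
  ring

theorem dv_const_mul {s : MF n} (hs : SmM s) (c : ℂ) {U : V n → ℂ}
    (hU : ContDiff ℝ ∞ U) (x : V n) : dv s (fun y => c * U y) x = c * dv s U x := by
  have hfl : ∀ i, Differentiable ℝ (fun y => ∑ j, (s y i j : ℂ) * pd j U y) := fun i =>
    (contDiff_flx hs hU i).differentiable (by simp)
  unfold dv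
  rw [Finset.mul_sum]
  refine Finset.sum_congr rfl fun i _ => ?_
  rw [← pd_const_mul _ (hfl i)]
  congr 1
  funext y
  rw [Finset.mul_sum]
  refine Finset.sum_congr rfl fun j _ => ?_
  rw [pd_const_mul c (hU.differentiable (by simp))]
  ring

theorem dv_add_const {s : MF n} (c : ℂ) {U : V n → ℂ} (x : V n) :
    dv s (fun y => U y + c) x = dv s U x := by
  unfold dv
  refine Finset.sum_congr rfl fun i _ => ?_
  congr 1
  funext y
  refine Finset.sum_congr rfl fun j _ => ?_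
  unfold pd
  rw [fderiv_add_const]

/-- `dv` of a coordinate function. -/
theorem dv_coord {t : MF n} (ht : SmM t) (a : Fin n) (y : V n) :
    dv t (fun y => ((y a : ℝ) : ℂ)) y = ((∑ i, pd i (fun y => t y i a) y : ℝ) : ℂ) := by
  unfold dv
  rw [Complex.ofReal_sum]
  refine Finset.sum_congr rfl fun i _ => ?_
  have e : (fun y => ∑ j, (t y i j : ℂ) * pd j (fun y : V n => ((y a : ℝ) : ℂ)) y) =
      fun y => ((t y i a : ℝ) : ℂ) := by
    funext y
    simp only [H158.pd_coord]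
    simp
  rw [e]
  unfold pd
  have h1 : HasFDerivAt (fun y => ((t y i a : ℝ) : ℂ))
      (Complex.ofRealCLM.comp (fderiv ℝ (fun y => t y i a) y)) y :=
    Complex.ofRealCLM.hasFDerivAt.comp y ((ht i a).differentiable (by simp) y).hasFDerivAt
  rw [h1.fderiv]
  rfl

/-- Two tensors which are equal off `Ω`. -/
theorem dv_off {Ω : Set (V n)} (hi : interior (closure Ω) = Ω) {s t : MF n} (hs : SmM s)
    (ht : SmM t) (h : ∀ x ∉ Ω, t x = s x) {U : V n → ℂ} (hU : ContDiff ℝ ∞ U) {x : V n}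
    (hx : x ∉ Ω) : dv t U x = dv s U x := by
  unfold dv
  refine Finset.sum_congr rfl fun i _ => ?_
  have h1 : ContDiff ℝ ∞ (fun y => (∑ j, (t y i j : ℂ) * pd j U y) -
      ∑ j, (s y i j : ℂ) * pd j U y) := (contDiff_flx ht hU i).sub (contDiff_flx hs hU i)
  have h2 : ∀ x ∉ Ω, (fun y => (∑ j, (t y i j : ℂ) * pd j U y) -
      ∑ j, (s y i j : ℂ) * pd j U y) x = 0 := by
    intro x hx
    simp only [h x hx, sub_self]
  have h3 := H158.fderiv_zero_off hi h1 h2 hx
  have d1 : DifferentiableAt ℝ (fun y => ∑ j, (t y i j : ℂ) * pd j U y) x :=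
    (contDiff_flx ht hU i).differentiable (by simp) x
  have d2 : DifferentiableAt ℝ (fun y => ∑ j, (s y i j : ℂ) * pd j U y) x :=
    (contDiff_flx hs hU i).differentiable (by simp) x
  rw [fderiv_fun_sub d1 d2, sub_eq_zero] at h3
  exact congrArg (fun L : V n →L[ℝ] ℂ => L (Pi.single i 1)) h3

theorem cl_ph4 {f : V n → ℝ} (hf : ContDiff ℝ ∞ f) {k : ℕ} {e : ℝ}
    (h : Cl k e f) : Cl k e (fun y => f (ph 4 y)) := by
  intro l hl x
  set c : V n := fun _ => (1 / 2 : ℝ) with hc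
  have hg : ContDiff ℝ ∞ (fun z => f (z + c)) := hf.comp (contDiff_id.add contDiff_const)
  have h2 := ContinuousLinearMap.iteratedFDeriv_comp_right
    ((4 : ℝ)⁻¹ • ContinuousLinearMap.id ℝ (V n))
    (f := fun z => f (z + c)) (n := ∞) hg x (i := l) (by exact_mod_cast le_top)
  have h1 : (fun y => f (ph 4 y)) =
      (fun z => f (z + c)) ∘ ⇑((4 : ℝ)⁻¹ • ContinuousLinearMap.id ℝ (V n)) := by
    funext y
    simp [ph, hc]
  rw [h1, h2]
  have h0 : 0 ≤ e := (norm_nonneg _).trans (h l hl x)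
  refine (ContinuousMultilinearMap.norm_compContinuousLinearMap_le _ _).trans ?_
  have h3 : ‖(4 : ℝ)⁻¹ • ContinuousLinearMap.id ℝ (V n)‖ ≤ 1 := by
    rw [norm_smul]
    calc ‖(4 : ℝ)⁻¹‖ * ‖ContinuousLinearMap.id ℝ (V n)‖ ≤ 1 * 1 := by
          gcongr
          · norm_num
          · exact ContinuousLinearMap.norm_id_le
      _ = 1 := by norm_num
  have h4 := iteratedFDeriv_comp_add_right (𝕜 := ℝ) (f := f) l c
    (((4 : ℝ)⁻¹ • ContinuousLinearMap.id ℝ (V n)) x)
  rw [h4]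
  rw [Finset.prod_const, Finset.card_univ, Fintype.card_fin]
  calc _ ≤ e * 1 := by
        gcongr
        · exact h l hl _
        · exact pow_le_one₀ (norm_nonneg _) h3
    _ = e := mul_one e

/-! ### The map `x ↦ 4 (x + w x - 1/2)` -/

/-- The displacement. -/
def wq (w : V n → V n) (x : V n) : V n := ps 4 (x + w x) - x

/-- The inverse. -/
def Kq (K : V n → V n) (y : V n) : V n := K (ph 4 y)

theorem add_wq (w : V n → V n) (x : V n) : x + wq w x = ps 4 (x + w x) := by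
  unfold wq; abel

theorem jm_wq {w : V n → V n} (hw : ContDiff ℝ ∞ w) (x : V n) :
    jm (wq w) x = (4 : ℝ) • jm w x := by
  have h0 : HasFDerivAt (fun x => x + w x) (ContinuousLinearMap.id ℝ (V n) + fderiv ℝ w x) x :=
    H158.hasFDerivAt_H hw x
  have h1 : HasFDerivAt (wq w) (((4 : ℝ) • ContinuousLinearMap.id ℝ (V n)).comp
      (ContinuousLinearMap.id ℝ (V n) + fderiv ℝ w x) - ContinuousLinearMap.id ℝ (V n)) x := by
    have h2 : HasFDerivAt (fun x => ps 4 (x + w x)) (((4 : ℝ) • ContinuousLinearMap.id ℝ (V n)).comp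
      (ContinuousLinearMap.id ℝ (V n) + fderiv ℝ w x)) x :=
      HasFDerivAt.comp x (f := fun x => x + w x) (fd_ps 4 (x + w x)) h0
    exact h2.sub (hasFDerivAt_id x)
  funext i j
  have h3 : pd j (wq w) x i = 4 * ((ContinuousLinearMap.id ℝ (V n) + fderiv ℝ w x)
      (Pi.single j 1)) i - (Pi.single j (1 : ℝ) : V n) i := by
    unfold pd
    rw [h1.fderiv]
    simp only [sub_apply, ContinuousLinearMap.comp_apply,
      smul_apply, ContinuousLinearMap.id_apply, Pi.sub_apply, Pi.smul_apply,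
      smul_eq_mul]
  rw [H158.H_apply] at h3
  have h4 : jm (wq w) x i j = (1 : Matrix (Fin n) (Fin n) ℝ) i j + pd j (wq w) x i := rfl
  rw [h4, h3, Matrix.smul_apply, smul_eq_mul]
  rw [Matrix.one_apply, Pi.single_apply]
  ring

theorem dif_wq {w K : V n → V n} (D : Dif univ w K) : Dif univ (wq w) (Kq K) := by
  refine ⟨?_, ?_, ?_, ?_, ?_, ?_⟩
  · exact ((contDiff_ps 4).comp (contDiff_id.add D.sw)).sub contDiff_id
  · exact D.sK.comp (contDiff_ph 4)
  · intro x
    rw [add_wq]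
    unfold Kq
    rw [ph_ps (by norm_num), D.l]
  · intro y
    rw [add_wq]
    unfold Kq
    rw [D.r, ps_ph (by norm_num)]
  · intro x hx
    exact absurd (mem_univ x) hx
  · intro x
    rw [jm_wq D.sw, Matrix.det_smul]
    have := D.dp x
    positivity

/-- The tensor in the new coordinates. -/
def tq (s : MF n) (w K : V n → V n) : MF n := fun y => psh s w K (ph 4 y)

theorem psh_wq {w K : V n → V n} (D : Dif univ w K) (s : MF n) (y : V n) :
    psh s (wq w) (Kq K) y = ((4 : ℝ) ^ 2 / 4 ^ n) • tq s w K y := by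
  unfold tq psh
  rw [jm_wq D.sw, Matrix.det_smul, Fintype.card_fin]
  show (4 ^ n * (jm w (K (ph 4 y))).det)⁻¹ • ((4 : ℝ) • jm w (K (ph 4 y)) * s (K (ph 4 y)) *
    ((4 : ℝ) • jm w (K (ph 4 y)))ᵀ) = _
  rw [Matrix.transpose_smul, Matrix.smul_mul, Matrix.smul_mul, Matrix.mul_smul, smul_smul,
    smul_smul, smul_smul]
  congr 1
  have : (jm w (K (ph 4 y))).det ≠ 0 := (D.dp _).ne'
  field_simp

theorem smM_tq {w K : V n → V n} (D : Dif univ w K) {s : MF n} (hs : SmM s) : SmM (tq s w K) :=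
  fun i j => ((H158.smM_psh D hs) i j).comp (contDiff_ph 4)

/-- Transport of the orthogonality identity. -/
theorem st2_tq {w K : V n → V n} (D : Dif univ w K) {Ω : Set (V n)} (hΩ : IsOpen Ω)
    {s₁ s₂ : MF n} (hs1 : SmM s₁) (hs2 : SmM s₂) (hy1 : ∀ x, (s₁ x).IsSymm)
    (hy2 : ∀ x, (s₂ x).IsSymm) (hst : St2 Ω s₁ s₂) :
    St2 (Kq K ⁻¹' Ω) (tq s₁ w K) (tq s₂ w K) := by
  have D4 := dif_wq D
  intro U W hU hW hdU hdW
  have hH : ContDiff ℝ ∞ (fun x : V n => x + wq w x) := contDiff_id.add D4.sw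
  have a1 : ∀ x ∈ Ω, dv s₁ (fun x => U (x + wq w x)) x = 0 := by
    intro x hx
    rw [dv_psh D4 hs1 hy1 hU, dv_smul (smM_tq D hs1) (psh_wq D s₁) hU, hdU, mul_zero, mul_zero]
    show Kq K (x + wq w x) ∈ Ω
    rw [D4.l]; exact hx
  have a2 : ∀ x ∈ Ω, dv s₂ (fun x => W (x + wq w x)) x = 0 := by
    intro x hx
    rw [dv_psh D4 hs2 hy2 hW, dv_smul (smM_tq D hs2) (psh_wq D s₂) hW, hdW, mul_zero, mul_zero]
    show Kq K (x + wq w x) ∈ Ω
    rw [D4.l]; exact hx
  have a3 : bl Ω (fun x => s₂ x - s₁ x) (fun x => U (x + wq w x)) (fun x => W (x + wq w x)) = 0 :=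
    hst _ _ (hU.comp hH) (hW.comp hH) a1 a2
  have a4 := bl_push_on D4 hΩ (fun x => s₂ x - s₁ x) (hU.differentiable (by simp))
    (hW.differentiable (by simp))
  rw [a3] at a4
  have a5 : ∀ y, psh (fun x => s₂ x - s₁ x) (wq w) (Kq K) y =
      ((4 : ℝ) ^ 2 / 4 ^ n) • (tq s₂ w K y - tq s₁ w K y) := by
    intro y
    rw [smul_sub, ← psh_wq D, ← psh_wq D]
    unfold psh
    rw [← smul_sub, Matrix.mul_sub, Matrix.sub_mul]
  have a6 : bl (Kq K ⁻¹' Ω) (psh (fun x => s₂ x - s₁ x) (wq w) (Kq K)) U W =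
      (((4 : ℝ) ^ 2 / 4 ^ n : ℝ) : ℂ) *
        bl (Kq K ⁻¹' Ω) (fun y => tq s₂ w K y - tq s₁ w K y) U W := by
    unfold bl
    rw [← integral_const_mul]
    refine integral_congr_ae (Filter.Eventually.of_forall fun y => ?_)
    simp only [Finset.mul_sum]
    refine Finset.sum_congr rfl fun i _ => Finset.sum_congr rfl fun j _ => ?_
    rw [a5 y, Matrix.smul_apply, smul_eq_mul]
    push_cast
    ring
  rw [a6] at a4
  refine (mul_eq_zero.1 a4).resolve_left ?_
  have : ((4 : ℝ) ^ 2 / 4 ^ n : ℝ) ≠ 0 := by positivity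
  exact_mod_cast this

end Vale.Agent.P088.R2.H238
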