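import Vale.Agent.P088.R2.H238.Aff
import Vale.Agent.P088.H442.CFFin
import Vale.Agent.P088.H634.Dif

/-!
# P088, row LOG: `RowCO2 → RowLOG`
-/

open MeasureTheory Set
open scoped ContDiff Matrix

noncomputable section

namespace Vale.Agent.P088.R2.H238

open Vale.Agent.P088.LR Vale.Agent.P088.LR.CF Vale.Agent.P088.H833 Vale.Agent.P088.LR.H925
open Vale.Agent.P088.HY

variable {n : ℕ}

theorem bls_subset_core : bls n ⊆ core n := by
  refine Subset.trans (fun x hx => ?_) bal_subset_core442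
  have h : ∑ j, (x j - 1 / 2) ^ 2 ≤ 1 / 1024 := hx
  show ∑ j, (x j - 1 / 2) ^ 2 ≤ 1 / 16
  linarith

theorem small_point {δ : ℝ} {w : V n → V n} (h : Cl 0 δ w) (x : V n) (j : Fin n) :
    |w x j| ≤ δ := by
  have h1 := h 0 le_rfl x
  rw [norm_iteratedFDeriv_zero] at h1
  have h2 : ‖w x j‖ ≤ ‖w x‖ := norm_le_pi_norm (w x) j
  rw [Real.norm_eq_abs] at h2
  exact h2.trans h1

/-- The container after the change of coordinates. -/
theorem sub_half {w K : V n → V n} (D : Dif univ w K) {η : ℝ} (hη : 0 ≤ η)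
    (hη' : 64 * (n + 1) * η ≤ 1) (hw : ∀ x j, |w x j| ≤ η) {Ω : Set (V n)} (hΩ : Ω ⊆ bls n) :
    Kq K ⁻¹' Ω ⊆ Bs n (1 / 2) := by
  intro y hy
  have hx : K (ph 4 y) ∈ Ω := hy
  set x := K (ph 4 y) with hxd
  have h1 : x + w x = ph 4 y := D.r (ph 4 y)
  have h2 : y = ps 4 (x + w x) := by rw [h1, ps_ph (by norm_num)]
  have h3 : ∑ j, (x j - 1 / 2) ^ 2 ≤ 1 / 1024 := hΩ hx
  have h4 : ∀ j, y j ^ 2 ≤ 32 * (x j - 1 / 2) ^ 2 + 32 * η ^ 2 := by
    intro j
    have e : y j = 4 * (x j + w x j - 1 / 2) := by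
      have := congrFun h2 j
      rw [this]
      simp [ps]
    have h5 : (w x j) ^ 2 ≤ η ^ 2 := by
      rw [← sq_abs]
      exact pow_le_pow_left₀ (abs_nonneg _) (hw x j) 2
    rw [e]
    nlinarith [sq_nonneg ((x j - 1 / 2) - w x j)]
  show HY.sq y < (1 / 2) ^ 2
  unfold HY.sq
  calc ∑ j, y j ^ 2 ≤ ∑ j, (32 * (x j - 1 / 2) ^ 2 + 32 * η ^ 2) :=
        Finset.sum_le_sum fun j _ => h4 j
    _ = 32 * ∑ j, (x j - 1 / 2) ^ 2 + n * (32 * η ^ 2) := by
        rw [Finset.sum_add_distrib, ← Finset.mul_sum]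
        simp
    _ ≤ 32 * (1 / 1024) + 1 / 16 := by
        have hn : (0 : ℝ) ≤ n := Nat.cast_nonneg n
        have h6 : (n : ℝ) * (32 * η ^ 2) ≤ 1 / 16 := by
          have h7 : (64 * ((n : ℝ) + 1) * η) ^ 2 ≤ 1 := by
            have : 0 ≤ 64 * ((n : ℝ) + 1) * η := by positivity
            nlinarith
          have h8 : (n : ℝ) ≤ ((n : ℝ) + 1) ^ 2 := by nlinarith
          have h9 : (n : ℝ) * η ^ 2 ≤ ((n : ℝ) + 1) ^ 2 * η ^ 2 :=
            mul_le_mul_of_nonneg_right h8 (sq_nonneg _)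
          nlinarith
        have := mul_le_mul_of_nonneg_left h3 (show (0 : ℝ) ≤ 32 by norm_num)
        linarith
    _ < (1 / 2) ^ 2 := by norm_num

/-- The unit ball comes from the cube. -/
theorem Kq_cube {w K : V n → V n} (D : Dif univ w K) {η : ℝ}
    (hη' : η ≤ 1 / 8) (hw : ∀ x j, |w x j| ≤ η) {y : V n} (hy : y ∈ Bn n) :
    Kq K y ∈ cube n := by
  have h1 : Kq K y + w (Kq K y) = ph 4 y := D.r (ph 4 y)
  have h2 : ∑ j, y j ^ 2 < 1 := hy
  intro j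
  have h3 : y j ^ 2 < 1 := lt_of_le_of_lt
    (Finset.single_le_sum (f := fun j => y j ^ 2) (fun _ _ => sq_nonneg _) (Finset.mem_univ j)) h2
  have h4 : |y j| < 1 := by
    rw [← sq_lt_one_iff_abs_lt_one]
    exact h3
  have h5 : Kq K y j + w (Kq K y) j = 4⁻¹ * y j + 1 / 2 := by
    have := congrFun h1 j
    simpa [ph] using this
  have h6 := abs_le.1 (hw (Kq K y) j)
  have h7 := abs_lt.1 h4
  constructor <;> linarith [h6.1, h6.2, h7.1, h7.2]

theorem cl_le {F : Type*} [NormedAddCommGroup F] [NormedSpace ℝ F] {k k' : ℕ} {a b : ℝ}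
    {f : V n → F} (h : Cl k a f) (hk : k' ≤ k) (hab : a ≤ b) : Cl k' b f :=
  fun l hl x => (h l (hl.trans hk) x).trans hab

/-- **`psh s w K` with harmonic coordinates is divergence free in the new coordinates.** -/
theorem div_tq {w K : V n → V n} (D : Dif univ w K) {s : MF n} (hs : SmM s)
    (hy : ∀ x, (s x).IsSymm) (a : Fin n) (y : V n)
    (h : dv s (fun y => ((y a + w y a : ℝ) : ℂ)) (Kq K y) = 0) :
    ∑ i, pd i (fun y => tq s w K y i a) y = 0 := by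
  have D4 := dif_wq D
  have hU : ContDiff ℝ ∞ (fun y : V n => ((y a : ℝ) : ℂ)) := H158.contDiff_coord a
  have hWs : ContDiff ℝ ∞ (fun y : V n => ((y a + w y a : ℝ) : ℂ)) :=
    H158.contDiff_W D a
  have h1 := dv_psh D4 hs hy hU (Kq K y)
  have h2 : (fun x : V n => (((x + wq w x) a : ℝ) : ℂ)) =
      fun x => (4 : ℂ) * ((x a + w x a : ℝ) : ℂ) + (-2 : ℂ) := by
    funext x
    rw [add_wq]
    simp only [ps, Pi.smul_apply, Pi.sub_apply, Pi.add_apply, smul_eq_mul]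
    push_cast
    ring
  rw [h2, dv_add_const, dv_const_mul hs _ hWs, h, mul_zero, D4.r,
    dv_smul (smM_tq D hs) (psh_wq D s) hU, dv_coord (smM_tq D hs) a y] at h1
  have h3 : (((jm (wq w) (Kq K y)).det : ℝ) : ℂ) ≠ 0 := by
    exact_mod_cast (D4.dp _).ne'
  have h4 : (((4 : ℝ) ^ 2 / 4 ^ n : ℝ) : ℂ) ≠ 0 := by
    have : ((4 : ℝ) ^ 2 / 4 ^ n : ℝ) ≠ 0 := by positivity
    exact_mod_cast this
  have h5 := (mul_eq_zero.1 h1.symm).resolve_left h3
  have h6 := (mul_eq_zero.1 h5).resolve_left h4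
  exact_mod_cast h6

/-- Injectivity of the push-forward. -/
theorem tq_inj {w K : V n → V n} (D : Dif univ w K) {s t : MF n}
    (h : ∀ y, tq s w K y = tq t w K y) (x : V n) : s x = t x := by
  have h1 := h (ps 4 (x + w x))
  unfold tq psh at h1
  rw [ph_ps (by norm_num), D.l] at h1
  have hd : (jm w x).det ≠ 0 := (D.dp x).ne'
  have h2 : jm w x * s x * (jm w x)ᵀ = jm w x * t x * (jm w x)ᵀ := by
    have := congrArg (fun M => (jm w x).det • M) h1
    simpa [smul_smul, hd] using this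
  have hu : IsUnit (jm w x).det := isUnit_iff_ne_zero.2 hd
  have hut : IsUnit ((jm w x)ᵀ).det := by rw [Matrix.det_transpose]; exact hu
  have h3 := congrArg (fun M => (jm w x)⁻¹ * M * ((jm w x)ᵀ)⁻¹) h2
  beta_reduce at h3
  rw [Matrix.mul_assoc (jm w x) (s x), Matrix.mul_assoc (jm w x) (t x),
    ← Matrix.mul_assoc (jm w x)⁻¹, ← Matrix.mul_assoc (jm w x)⁻¹,
    Matrix.nonsing_inv_mul _ hu, Matrix.one_mul, Matrix.one_mul,
    Matrix.mul_assoc, Matrix.mul_assoc, Matrix.mul_nonsing_inv _ hut, Matrix.mul_one,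
    Matrix.mul_one] at h3
  exact h3

/-- **Row LOG.** -/
theorem rowLOG (hCO : RowCO2) : RowLOG := by
  intro n hn
  obtain ⟨k, ε, hε, hco⟩ := hCO n hn
  -- the final smallness
  obtain ⟨CD, εD, hCD, hεD, hdif⟩ := H634.rowDIF n k
  obtain ⟨δa, hδa, hna⟩ := H72.norm1 n k (ε / CD) (by positivity)
  obtain ⟨CP, εP, hCP, hεP, hphi⟩ := H833.phi n k
  obtain ⟨δb, hδb, hnb⟩ := H72.norm1 n k (δa / CP) (by positivity)
  obtain ⟨CG, εG, hCG, hεG, hg2⟩ :=
    (H27.rowG2 H501.rowA1 H501.rowA2 H776.rowA3 H102.neu) n (k + 1)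
  obtain ⟨CB, hCB, hB⟩ := H776.rowA3 n (k + 1)
  set η : ℝ := 1 / (64 * (n + 1)) with hη
  have hη0 : 0 < η := by positivity
  -- the size of the coefficients
  obtain ⟨δ2, hδ2, hδ2G, hδ2P, hδ2D, hδ2a, hδ2b, hδ2η⟩ : ∃ δ2 : ℝ, 0 < δ2 ∧ δ2 ≤ εG ∧
      CG * δ2 ≤ εP ∧ CG * δ2 ≤ εD ∧ CG * δ2 ≤ δa ∧ CP * (CG * δ2) ≤ δb ∧ CG * δ2 ≤ η := by
    set m : ℝ := min (min εP εD) (min δa (min (δb / CP) η)) with hm
    have hm0 : 0 < m := lt_min (lt_min hεP hεD) (lt_min hδa (lt_min (by positivity) hη0))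
    have hmul : CG * min εG (m / CG) ≤ m := by
      calc CG * min εG (m / CG) ≤ CG * (m / CG) :=
            mul_le_mul_of_nonneg_left (min_le_right _ _) hCG.le
        _ = m := by field_simp
    refine ⟨min εG (m / CG), lt_min hεG (by positivity), min_le_left _ _, ?_, ?_, ?_, ?_, ?_⟩
    · exact hmul.trans ((min_le_left _ _).trans (min_le_left _ _))
    · exact hmul.trans ((min_le_left _ _).trans (min_le_right _ _))
    · exact hmul.trans ((min_le_right _ _).trans (min_le_left _ _))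
    · have h1 : m ≤ δb / CP := (min_le_right _ _).trans ((min_le_right _ _).trans (min_le_left _ _))
      calc CP * (CG * min εG (m / CG)) ≤ CP * (δb / CP) :=
            mul_le_mul_of_nonneg_left (hmul.trans h1) hCP.le
        _ = δb := by field_simp
    · exact hmul.trans ((min_le_right _ _).trans ((min_le_right _ _).trans (min_le_right _ _)))
  obtain ⟨B, hB0, hB1, hBa, hBb⟩ : ∃ B : ℝ, 0 < B ∧ CB * B ≤ δ2 ∧ B ≤ δa ∧ B ≤ δb := by
    refine ⟨min (δ2 / CB) (min δa δb), lt_min (by positivity) (lt_min hδa hδb), ?_,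
      (min_le_right _ _).trans (min_le_left _ _), (min_le_right _ _).trans (min_le_right _ _)⟩
    calc CB * min (δ2 / CB) (min δa δb) ≤ CB * (δ2 / CB) :=
          mul_le_mul_of_nonneg_left (min_le_left _ _) hCB.le
      _ = δ2 := by field_simp
  refine ⟨k + 1 + n + 1, B, hB0, ?_⟩
  intro Ω hΩ hreg hΩb s₁ s₂ hs1 hs2 hy1 hy2 hone1b hoff hcl1 hcl2 hst
  have hΩc : Ω ⊆ core n := hΩb.trans bls_subset_core
  have hone1 : ∀ x ∉ core n, s₁ x = 1 := fun x hx => hone1b x fun h => hx (bal_subset_core442 h)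
  have hone2 : ∀ x ∉ core n, s₂ x = 1 := fun x hx => by
    rw [hoff x fun h => hx (hΩc h)]; exact hone1 x hx
  have hentc : ∀ (s : MF n), SmM s → (∀ x ∉ core n, s x = 1) →
      (∀ i j, Cl (k + 1 + n + 1) B
        (fun x => s x i j - (1 : Matrix (Fin n) (Fin n) ℝ) i j)) →
      ∀ i j, nm (k + 1) (cf 0 (ent s i j)) ≤ δ2 := by
    intro s hs hs1 hcl i j
    have h1 := (hB (ent s i j) (H129.smooth_ent hs i j)
      ((H129.tsupport_ent subset_rfl hs1 i j).trans H129.core_subset_cube) 0 (by simp)).2.2 B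
      (H442.cl_ent442 hs i j (hcl i j))
    exact h1.trans hB1
  obtain ⟨w₁, w₂, gc, hw1, hw2, hwc1, hwc2, hww, hd1, hd2, -, -⟩ :=
    hg2 Ω hΩ hreg hΩc s₁ s₂ hs1 hs2 hy1 hy2 hone1 hoff hst δ2 hδ2.le hδ2G
      (hentc _ hs1 hone1 hcl1) (hentc _ hs2 hone2 hcl2)
  obtain ⟨w, K, hD, hwcl, hwe, hcomp⟩ := hphi Ω w₁ w₂ hw1 hw2 hww (CG * δ2) (by positivity)
    hδ2P hwc1 hwc2
  have hbd : Bornology.IsBounded Ω := H129.isCompact_core.isBounded.subset hΩc
  obtain ⟨p1, p2, p3, p4, -⟩ := H292.pu2 Ω hΩ hΩc hreg s₁ s₂ hs1 hs2 hy1 hy2 hoff w K hD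
  have hΩcube : Ω ⊆ cube n := hΩc.trans H129.core_subset_cube
  refine ⟨w, K, hD, ?_⟩
  set t : MF n := psh s₂ w K with ht
  have hstt : St2 Ω s₁ t := p4 hst
  -- the coordinates `x + w₁ x` are harmonic for `t` in the cube
  have hd3 : ∀ a, ∀ x ∈ cube n, dv t (fun y => ((y a + w₁ y a : ℝ) : ℂ)) x = 0 := by
    intro a x hx
    by_cases hxΩ : x ∈ Ω
    · exact phi_gauge hΩ hbd hreg hs2 hy2 hD hw1 hw2 hwe a
        (fun x hx => hd2 a x (hΩcube hx)) x hxΩ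
    · rw [dv_off hreg hs1 p1 p3 (H292.contDiff_U hw1 a) hxΩ]
      exact hd1 a x hx
  -- smallness of `t`
  have hnt : ∀ i j, Cl k δa (fun x => t x i j - (1 : Matrix (Fin n) (Fin n) ℝ) i j) := by
    intro i j
    have h1 := hnb Ω s₂ w K CP hs2 hD hcomp (fun i j => cl_le (hcl2 i j) (by omega) hBb)
      (cl_le hwcl le_rfl hδ2b) i j
    have h2 : CP * (δa / CP) = δa := by field_simp
    rw [h2] at h1
    exact h1
  -- the global diffeomorphism `id + w₁`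
  obtain ⟨K₁, hD1, hcomp1⟩ := hdif univ w₁ hw1 (fun x hx => absurd (mem_univ x) hx)
    (cl_le hwc1 (by omega) hδ2D)
  have hw1η : ∀ x j, |w₁ x j| ≤ η := small_point (cl_le hwc1 (by omega) hδ2η)
  have hCDε : CD * (ε / CD) = ε := by field_simp
  -- the two tensors
  have hTS : ∀ s : MF n, SmM s → (∀ x, (s x).IsSymm) →
      (∀ i j, Cl k δa (fun x => s x i j - (1 : Matrix (Fin n) (Fin n) ℝ) i j)) →
      (∀ a, ∀ x ∈ cube n, dv s (fun y => ((y a + w₁ y a : ℝ) : ℂ)) x = 0) →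
      TS n k ε (tq s w₁ K₁) := by
    intro s hs hy hcl hdv
    refine ⟨smM_tq hD1 hs, fun y => H158.isSymm_psh hD1 hy _, fun i j => ?_, fun y hyB a => ?_⟩
    · have h1 := hna univ s w₁ K₁ CD hs hD1 hcomp1 hcl (cl_le hwc1 (by omega) hδ2a) i j
      rw [hCDε] at h1
      exact cl_ph4 (((H158.smM_psh hD1 hs) i j).sub contDiff_const) h1
    · refine div_tq hD1 hs hy a y (hdv a _ (Kq_cube hD1 ?_ hw1η hyB))
      rw [hη, div_le_div_iff₀ (by positivity) (by norm_num)]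
      have : (0 : ℝ) ≤ n := Nat.cast_nonneg n
      linarith
  have hT1 := hTS s₁ hs1 hy1 (fun i j => cl_le (hcl1 i j) (by omega) hBa) hd1
  have hT2 := hTS t p1 p2 hnt hd3
  have hOo : IsOpen (Kq K₁ ⁻¹' Ω) := hΩ.preimage (dif_wq hD1).sK.continuous
  have hsub : Kq K₁ ⁻¹' Ω ⊆ Bs n (1 / 2) := by
    refine sub_half hD1 hη0.le ?_ hw1η hΩb
    rw [hη]
    apply le_of_eq
    field_simp
  have heq := hco _ _ hT1 hT2 (Kq K₁ ⁻¹' Ω) hOo hsub
    (fun y hy => by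
      show psh t w₁ K₁ (ph 4 y) = psh s₁ w₁ K₁ (ph 4 y)
      unfold psh
      rw [p3 (K₁ (ph 4 y)) hy])
    (st2_tq hD1 hΩ hs1 p1 hy1 p2 hstt)
  exact fun x => tq_inj hD1 heq x

end Vale.Agent.P088.R2.H238
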