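import Vale.Agent.P088.H442.Defs3
import Vale.Agent.P088.H833.StarPush

/-!
# P088, row LOG: the operator `div (s ∇ ·)` under a diffeomorphism of the space
-/

open MeasureTheory Set
open scoped ContDiff Matrix

noncomputable section

namespace Vale.Agent.P088.R2.H238

open Vale.Agent.P088.LR Vale.Agent.P088.LR.CF Vale.Agent.P088.H833

variable {n : ℕ}

theorem continuous_dv {s : MF n} (hs : SmM s) {W : V n → ℂ} (hW : ContDiff ℝ ∞ W) :
    Continuous fun x => dv s W x := by
  unfold dv
  refine continuous_finsetSum _ fun j _ => ?_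
  exact (contDiff_pd (contDiff_flx hs hW j) j).continuous

/-- Weak form on the whole space. -/
theorem int_dv_univ {s : MF n} (hs : SmM s) (hsym : ∀ x, (s x).IsSymm)
    {W φ : V n → ℂ} (hW : ContDiff ℝ ∞ W) (hφ : ContDiff ℝ ∞ φ) (hc : HasCompactSupport φ) :
    ∫ x, dv s W x * φ x = -bl univ s W φ := by
  obtain ⟨R, hR⟩ := hc.isBounded.subset_ball (0 : V n)
  have h0 : ∀ x ∉ Metric.ball (0 : V n) (max R 1), φ x = 0 := by
    intro x hx
    refine image_eq_zero_of_notMem_tsupport fun h => hx ?_
    exact Metric.ball_subset_ball (le_max_left _ _) (hR h)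
  have hi : interior (closure (Metric.ball (0 : V n) (max R 1))) = Metric.ball 0 (max R 1) := by
    rw [closure_ball _ (by positivity), interior_closedBall _ (by positivity)]
  have h1 := int_dv Metric.isBounded_ball hs hW hφ h0 hi
  rw [h1, bl_eq_flx hsym]
  congr 1
  have h2 : ∀ x ∉ Metric.ball (0 : V n) (max R 1), ∑ j, flx s W j x * pd j φ x = 0 := by
    intro x hx
    refine Finset.sum_eq_zero fun j _ => ?_
    have : pd j φ x = 0 := by
      unfold pd
      rw [H158.fderiv_zero_off hi hφ h0 hx]
      simp
    rw [this, mul_zero]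
  rw [setIntegral_eq_integral_of_forall_compl_eq_zero h2, Measure.restrict_univ]

/-- **`div (s ∇ ·)` under the diffeomorphism `id + w`.** -/
theorem dv_psh {w K : V n → V n} (D : Dif univ w K) {s : MF n} (hs : SmM s)
    (hsym : ∀ x, (s x).IsSymm) {U : V n → ℂ} (hU : ContDiff ℝ ∞ U) (x : V n) :
    dv s (fun x => U (x + w x)) x =
      (((jm w x).det : ℝ) : ℂ) * dv (psh s w K) U (x + w x) := by
  have hH : ContDiff ℝ ∞ (fun x : V n => x + w x) := contDiff_id.add D.sw
  have hUH : ContDiff ℝ ∞ (fun x => U (x + w x)) := hU.comp hH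
  have hps : SmM (psh s w K) := H158.smM_psh D hs
  have hpy : ∀ x, (psh s w K x).IsSymm := fun x => H158.isSymm_psh D hsym x
  have c1 : Continuous fun x => dv s (fun x => U (x + w x)) x := continuous_dv hs hUH
  have c2 : Continuous fun x => dv (psh s w K) U (x + w x) :=
    (continuous_dv hps hU).comp hH.continuous
  have c3 : Continuous fun x => (((jm w x).det : ℝ) : ℂ) :=
    Complex.continuous_ofReal.comp (H158.smM_det (H158.contDiff_jm D.sw)).continuous
  have c4 : Continuous fun x => dv s (fun x => U (x + w x)) x -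
      (((jm w x).det : ℝ) : ℂ) * dv (psh s w K) U (x + w x) := c1.sub (c3.mul c2)
  have hae : ∀ᵐ x : V n, dv s (fun x => U (x + w x)) x -
      (((jm w x).det : ℝ) : ℂ) * dv (psh s w K) U (x + w x) = 0 := by
    refine ae_eq_zero_of_integral_contDiff_smul_eq_zero c4.locallyIntegrable ?_
    intro g hg hgc
    set ψ : V n → ℂ := fun x => ((g x : ℝ) : ℂ) with hψ
    have hψs : ContDiff ℝ ∞ ψ := Complex.ofRealCLM.contDiff.comp hg
    have hψc : HasCompactSupport ψ := hgc.comp_left (g := fun r : ℝ => (r : ℂ)) (by simp)
    -- the test function on the other side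
    set φ : V n → ℂ := fun y => ψ (K y) with hφ
    have hφs : ContDiff ℝ ∞ φ := hψs.comp D.sK
    have hφH : (fun x => φ (x + w x)) = ψ := by
      funext x
      show ψ (K (x + w x)) = ψ x
      rw [D.l]
    have hφc : HasCompactSupport φ := by
      refine HasCompactSupport.intro (K := (fun x => x + w x) '' tsupport ψ)
        (hψc.image hH.continuous) fun y hy => ?_
      have : K y ∉ tsupport ψ := fun h => hy ⟨K y, h, D.r y⟩
      show ψ (K y) = 0
      exact image_eq_zero_of_notMem_tsupport this
    have e1 := int_dv_univ hs hsym hUH hψs hψc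
    have e2 := int_dv_univ hps hpy hU hφs hφc
    have e3 := H158.bl_push D isOpen_univ s (hU.differentiable (by simp))
      (hφs.differentiable (by simp))
    rw [hφH] at e3
    -- change of variables in `e2`
    have e4 := integral_image_eq_integral_abs_det_fderiv_smul (volume : Measure (V n))
      MeasurableSet.univ (f := fun x => x + w x)
      (f' := fun x => ContinuousLinearMap.id ℝ (V n) + fderiv ℝ w x)
      (fun x _ => (H158.hasFDerivAt_H D.sw x).hasFDerivWithinAt) ((H158.H_inj D).injOn)
      (fun y => dv (psh s w K) U y * φ y)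
    rw [H158.H_image D, Measure.restrict_univ] at e4
    have e5 : ∀ x : V n, |(ContinuousLinearMap.id ℝ (V n) + fderiv ℝ w x).det| •
        (dv (psh s w K) U (x + w x) * φ (x + w x)) =
        (((jm w x).det : ℝ) : ℂ) * dv (psh s w K) U (x + w x) * ψ x := by
      intro x
      rw [H158.det_H, abs_of_pos (D.dp x), Complex.real_smul]
      have : φ (x + w x) = ψ x := congrFun hφH x
      rw [this]
      ring
    simp only [e5] at e4
    have i1 : Integrable fun x => dv s (fun x => U (x + w x)) x * ψ x :=
      (c1.mul hψs.continuous).integrable_of_hasCompactSupport hψc.mul_left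
    have i2 : Integrable fun x => (((jm w x).det : ℝ) : ℂ) * dv (psh s w K) U (x + w x) * ψ x :=
      ((c3.mul c2).mul hψs.continuous).integrable_of_hasCompactSupport hψc.mul_left
    have e6 : ∀ x, g x • (dv s (fun x => U (x + w x)) x -
        (((jm w x).det : ℝ) : ℂ) * dv (psh s w K) U (x + w x)) =
        dv s (fun x => U (x + w x)) x * ψ x -
          (((jm w x).det : ℝ) : ℂ) * dv (psh s w K) U (x + w x) * ψ x := by
      intro x
      rw [Complex.real_smul]
      show ψ x * _ = _
      ring
    simp only [e6]
    rw [integral_sub i1 i2, e1, ← e4, e2, e3, sub_self]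
  have h := Measure.eq_of_ae_eq (μ := (volume : Measure (V n))) hae c4 continuous_const
  have h' := congrFun h x
  exact sub_eq_zero.1 h'

end Vale.Agent.P088.R2.H238
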